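import Vale.Agent.P217.Main

namespace Vale.Agent.Results.P217.Chai

open Vale.Agent.P217

theorem result (p n : ℕ) [Fact p.Prime] (hn : 1 ≤ n) :
    (∃ F : FormalGroup (LTRing p n), IsLubinTate p n F) ∧
    ∀ F : FormalGroup (LTRing p n), IsLubinTate p n F →
      (∀ P : Ideal (LTRing p n),
        (P.IsPrime ∧ IsInvariant p n F P) ↔ ∃ h ≤ n, P = heightIdeal p n h) ∧
      ∀ J : Ideal (LTRing p n),
        (J.IsRadical ∧ IsInvariant p n F J) ↔ (J = ⊤ ∨ ∃ h ≤ n, J = heightIdeal p n h) :=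
  chai p n hn

end Vale.Agent.Results.P217.Chai
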